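import Mathlib

/-!
The convolution ring of the conjugation groupoid, dominated by summable weights, and its traces.
-/

open Filter Topology
open scoped Classical

namespace Vale.Agent.P184

variable {G : Type*} [Group G] {R : Type*} [NormedRing R] [CompleteSpace R] [NormedAlgebra ℂ R]

def Dom (a : G → G → R) (B : ℝ) : Prop :=
  ∃ w : G → ℝ, Summable w ∧ (∀ γ h, ‖a γ h‖ ≤ w h) ∧ ∑' h, w h ≤ B

noncomputable def cv (a b : G → G → R) (γ h : G) : R := ∑' k, a γ k * b (k⁻¹ * γ * k) (k⁻¹ * h)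

def sh (G : Type*) [Group G] : G × G ≃ G × G where
  toFun p := (p.2, p.2⁻¹ * p.1)
  invFun p := (p.1 * p.2, p.1)
  left_inv p := by simp
  right_inv p := by simp

theorem wsum {v w : G → ℝ} (hv : Summable v) (hw : Summable w) (v0 : ∀ h, 0 ≤ v h) (w0 : ∀ h, 0 ≤ w h) :
    HasSum (fun p : G × G => v p.2 * w (p.2⁻¹ * p.1)) ((∑' h, v h) * ∑' h, w h) :=
  (sh G).hasSum_iff.2 (hv.hasSum.mul hw.hasSum (hv.mul_of_nonneg hw v0 w0))

omit [CompleteSpace R] [NormedAlgebra ℂ R] in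
theorem nn {a : G → G → R} {w : G → ℝ} (h : ∀ γ h, ‖a γ h‖ ≤ w h) (k : G) : 0 ≤ w k :=
  (norm_nonneg _).trans (h 1 k)

omit [NormedAlgebra ℂ R] in
theorem Dom.two {a b : G → G → R} {A B : ℝ} (ha : Dom a A) (hb : Dom b B) : ∃ u : G × G → ℝ, Summable u ∧
    (∀ γ h k, ‖a γ k * b (k⁻¹ * γ * k) (k⁻¹ * h)‖ ≤ u (h, k)) ∧ ∑' p, u p ≤ A * B := by
  obtain ⟨v, v1, v2, v3⟩ := ha
  obtain ⟨w, w1, w2, w3⟩ := hb
  have s := wsum v1 w1 (nn v2) (nn w2)
  refine ⟨_, s.summable, fun γ h k => (norm_mul_le _ _).trans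
    (mul_le_mul (v2 _ _) (w2 _ _) (norm_nonneg _) (nn v2 _)), ?_⟩
  rw [s.tsum_eq]
  exact mul_le_mul v3 w3 (tsum_nonneg (nn w2)) ((tsum_nonneg (nn v2)).trans v3)

omit [NormedAlgebra ℂ R] in
theorem Dom.sm {a b : G → G → R} {A B : ℝ} (ha : Dom a A) (hb : Dom b B) (γ h : G) :
    Summable fun k => a γ k * b (k⁻¹ * γ * k) (k⁻¹ * h) := by
  obtain ⟨u, u1, u2, -⟩ := ha.two hb
  exact .of_norm_bounded (u1.prod_factor h) (u2 γ h)

omit [NormedAlgebra ℂ R] in
theorem Dom.mul {a b : G → G → R} {A B : ℝ} (ha : Dom a A) (hb : Dom b B) : Dom (cv a b) (A * B) := by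
  obtain ⟨u, u1, u2, u3⟩ := ha.two hb
  refine ⟨fun h => ∑' k, u (h, k), u1.prod, fun γ h => ?_, by rwa [← u1.tsum_prod]⟩
  exact tsum_of_norm_bounded (u1.prod_factor h).hasSum (u2 γ h)

omit [NormedAlgebra ℂ R] in
theorem cv_assoc {a b c : G → G → R} {A B C : ℝ} (ha : Dom a A) (hb : Dom b B) (hc : Dom c C) :
    cv (cv a b) c = cv a (cv b c) := by
  funext γ h
  obtain ⟨u, u1, u2, -⟩ := ha.two hb
  obtain ⟨w, w1, w2, -⟩ := id hc
  have s : Summable fun p : G × G =>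
      a γ p.2 * b (p.2⁻¹ * γ * p.2) (p.2⁻¹ * p.1) * c (p.1⁻¹ * γ * p.1) (p.1⁻¹ * h) :=
    .of_norm_bounded (u1.mul_right (∑' k, w k)) fun p => (norm_mul_le _ _).trans
      (mul_le_mul (u2 _ _ _) ((w2 _ _).trans (w1.le_tsum _ fun k _ => nn w2 k)) (norm_nonneg _)
        ((norm_nonneg _).trans (u2 γ _ _)))
  unfold cv
  simp only [← (ha.sm hb γ _).tsum_mul_right, ← (hb.sm hc _ _).tsum_mul_left]
  rw [← s.tsum_prod, ← (sh G).symm.tsum_eq]
  refine ((sh G).symm.summable_iff.2 s).tsum_prod.trans ?_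
  simp [sh, mul_assoc]

/-- The ring of dominated functions. -/
def Al (G : Type*) [Group G] (R : Type*) [NormedRing R] : Type _ := {a : G → G → R // ∃ B, Dom a B}

omit [CompleteSpace R] [NormedAlgebra ℂ R] in
theorem Dom.add {a b : G → G → R} {A B : ℝ} (ha : Dom a A) (hb : Dom b B) : Dom (a + b) (A + B) := by
  obtain ⟨v, v1, v2, v3⟩ := ha
  obtain ⟨w, w1, w2, w3⟩ := hb
  exact ⟨fun h => v h + w h, v1.add w1, fun γ h => (norm_add_le _ _).trans (add_le_add (v2 _ _) (w2 _ _)),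
    by rw [v1.tsum_add w1]; linarith⟩

noncomputable instance : Add (Al G R) := ⟨fun a b => ⟨a.1 + b.1, _, a.2.choose_spec.add b.2.choose_spec⟩⟩
noncomputable instance : Mul (Al G R) := ⟨fun a b => ⟨cv a.1 b.1, _, a.2.choose_spec.mul b.2.choose_spec⟩⟩
instance : Neg (Al G R) := ⟨fun a => ⟨-a.1, by
  obtain ⟨B, w, w1, w2, w3⟩ := a.2
  exact ⟨B, w, w1, fun γ h => by simpa using w2 γ h, w3⟩⟩⟩
instance : Zero (Al G R) := ⟨⟨0, 0, 0, summable_zero, by simp, by simp⟩⟩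
noncomputable instance : One (Al G R) := ⟨⟨fun _ h => if h = 1 then 1 else 0, _,
  fun h => if h = 1 then ‖(1 : R)‖ else 0, (hasSum_ite_eq _ _).summable,
  fun _ h => by by_cases e : h = 1 <;> simp [e], le_rfl⟩⟩

noncomputable instance : Ring (Al G R) := Ring.ofMinimalAxioms
  (fun _ _ _ => Subtype.ext (add_assoc _ _ _)) (fun _ => Subtype.ext (zero_add _))
  (fun _ => Subtype.ext (neg_add_cancel _))
  (fun a b c => Subtype.ext (cv_assoc a.2.choose_spec b.2.choose_spec c.2.choose_spec))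
  (fun a => Subtype.ext (by
    funext γ h
    change ∑' k, (if k = 1 then 1 else 0) * a.1 (k⁻¹ * γ * k) (k⁻¹ * h) = a.1 γ h
    rw [tsum_eq_single 1 fun k hk => by simp [hk]]
    simp))
  (fun a => Subtype.ext (by
    funext γ h
    change ∑' k, a.1 γ k * (if k⁻¹ * h = 1 then 1 else 0) = a.1 γ h
    rw [tsum_eq_single h fun k hk => by simp [inv_mul_eq_one, hk]]
    simp))
  (fun a b c => Subtype.ext (by
    funext γ h
    exact (tsum_congr fun k => mul_add _ _ _).trans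
      ((a.2.choose_spec.sm b.2.choose_spec γ h).tsum_add (a.2.choose_spec.sm c.2.choose_spec γ h))))
  (fun a b c => Subtype.ext (by
    funext γ h
    exact (tsum_congr fun k => add_mul _ _ _).trans
      ((a.2.choose_spec.sm c.2.choose_spec γ h).tsum_add (b.2.choose_spec.sm c.2.choose_spec γ h))))

noncomputable def Tr (C : Set G) (tr : R →L[ℂ] ℂ) (a : G → G → R) : ℂ :=
  ∑' γ, if γ ∈ C then tr (a γ γ) else 0

variable {C : Set G} {tr : R →L[ℂ] ℂ}

omit [CompleteSpace R] in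
theorem Tr_bd {a : G → G → R} {B : ℝ} (ha : Dom a B) :
    (Summable fun γ => if γ ∈ C then tr (a γ γ) else 0) ∧ ‖Tr C tr a‖ ≤ ‖tr‖ * B := by
  obtain ⟨w, w1, w2, w3⟩ := ha
  have k : ∀ γ, ‖if γ ∈ C then tr (a γ γ) else 0‖ ≤ ‖tr‖ * w γ := fun γ => by
    split_ifs
    · exact (tr.le_opNorm _).trans (mul_le_mul_of_nonneg_left (w2 _ _) (norm_nonneg _))
    · simpa using mul_nonneg (norm_nonneg tr) (nn w2 γ)
  exact ⟨.of_norm_bounded (w1.mul_left _) k, (tsum_of_norm_bounded (w1.hasSum.mul_left _) k).trans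
    (mul_le_mul_of_nonneg_left w3 (norm_nonneg _))⟩

def sg (G : Type*) [Group G] : G × G ≃ G × G where
  toFun p := (p.2⁻¹ * p.1 * p.2, p.2⁻¹ * p.1)
  invFun p := (p.2⁻¹ * p.1 * p.2, p.2⁻¹ * p.1)
  left_inv p := by simp [mul_assoc]
  right_inv p := by simp [mul_assoc]

theorem Tr_cv {a b : G → G → R} {A B : ℝ} (ha : Dom a A) (hb : Dom b B) : Tr C tr (cv a b) =
    ∑' p : G × G, if p.1 ∈ C then tr (a p.1 p.2 * b (p.2⁻¹ * p.1 * p.2) (p.2⁻¹ * p.1)) else 0 := by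
  obtain ⟨u, u1, u2, -⟩ := ha.two hb
  rw [Summable.tsum_prod (.of_norm_bounded (u1.mul_left ‖tr‖) fun p => ?_)]
  · refine tsum_congr fun γ => ?_
    split_ifs
    · exact tr.map_tsum (ha.sm hb γ γ)
    · simp
  · split_ifs
    · exact (tr.le_opNorm _).trans (mul_le_mul_of_nonneg_left (u2 _ _ _) (norm_nonneg _))
    · simpa using mul_nonneg (norm_nonneg tr) ((norm_nonneg _).trans (u2 1 p.1 p.2))

theorem Tr_comm (hC : ∀ γ k, k⁻¹ * γ * k ∈ C ↔ γ ∈ C) (ht : ∀ x y, tr (x * y) = tr (y * x))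
    (a b : Al G R) : Tr C tr (a * b).1 = Tr C tr (b * a).1 := by
  change Tr C tr (cv a.1 b.1) = Tr C tr (cv b.1 a.1)
  rw [Tr_cv a.2.choose_spec b.2.choose_spec, Tr_cv b.2.choose_spec a.2.choose_spec, ← (sg G).tsum_eq]
  refine tsum_congr fun p => ?_
  simp only [sg, Equiv.coe_fn_mk, hC]
  rw [ht]
  simp [mul_assoc]

theorem Tr_add (a b : Al G R) : Tr C tr (a + b).1 = Tr C tr a.1 + Tr C tr b.1 := by
  unfold Tr
  rw [← (Tr_bd a.2.choose_spec).1.tsum_add (Tr_bd b.2.choose_spec).1]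
  refine tsum_congr fun γ => ?_
  split_ifs
  · exact map_add tr _ _
  · simp

theorem ring_step {S : Type*} [Ring S] (T : S →+ ℂ) (hT : ∀ a b, T (a * b) = T (b * a)) {e f : S}
    (he : e * e = e) (hf : f * f = f) (n : ℕ) : T (((e - f) * (e - f)) ^ n * (e - f)) = T (e - f) := by
  induction n with
  | zero => simp
  | succ n ih =>
    have e2 : ∀ x, e * (e * x) = e * x := fun x => by rw [← mul_assoc, he]
    have f2 : ∀ x, f * (f * x) = f * x := fun x => by rw [← mul_assoc, hf]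
    have c1 : Commute e (((e - f) * (e - f)) ^ n) := Commute.pow_right (by
      simp only [Commute, SemiconjBy, mul_sub, sub_mul, mul_assoc, he, hf, e2, f2]; abel) n
    have c2 : Commute f (((e - f) * (e - f)) ^ n) := Commute.pow_right (by
      simp only [Commute, SemiconjBy, mul_sub, sub_mul, mul_assoc, he, hf, e2, f2]; abel) n
    have k : (e - f) * (e - f) * (e - f) = (e - f) + (f * e * f - e * f * e) := by
      simp only [mul_sub, sub_mul, mul_assoc, he, hf, e2, f2]; abel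
    obtain ⟨P, hP⟩ : ∃ P, P = ((e - f) * (e - f)) ^ n := ⟨_, rfl⟩
    rw [pow_succ, mul_assoc, k, mul_add, map_add, ih, ← hP]
    rw [← hP] at c1 c2
    have a1 : T (P * (f * e * f)) = T (P * (f * e)) := by
      rw [← mul_assoc, hT, ← mul_assoc, c2.eq, mul_assoc, f2]
    have a2 : T (P * (e * f * e)) = T (P * (f * e)) := by
      rw [← mul_assoc, hT, ← mul_assoc, c1.eq, mul_assoc, e2, ← mul_assoc, hT, ← mul_assoc, ← mul_assoc,
        c2.eq]
    rw [mul_sub P, map_sub T (P * _), a1, a2, sub_self, add_zero]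

theorem Tr_close (hC : ∀ γ k, k⁻¹ * γ * k ∈ C ↔ γ ∈ C) (ht : ∀ x y, tr (x * y) = tr (y * x))
    {e f : Al G R} (he : e * e = e) (hf : f * f = f) {B : ℝ} (hB : Dom (e - f).1 B) (h0 : 0 ≤ B)
    (h1 : B < 1) : Tr C tr e.1 = Tr C tr f.1 := by
  let T : Al G R →+ ℂ := AddMonoidHom.mk' (fun a => Tr C tr a.1) Tr_add
  have d : ∀ n : ℕ, Dom (((e - f) * (e - f)) ^ n * (e - f)).1 ((B * B) ^ n * B) := fun n => by
    induction n with
    | zero => simpa using hB
    | succ n ih =>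
      rw [pow_succ', pow_succ', mul_assoc, mul_assoc (B * B)]
      exact (hB.mul hB).mul ih
  have k : ∀ n : ℕ, ‖T (e - f)‖ ≤ ‖tr‖ * ((B * B) ^ n * B) := fun n => by
    rw [← ring_step T (Tr_comm hC ht) he hf n]
    exact (Tr_bd (d n)).2
  have t := ((tendsto_pow_atTop_nhds_zero_of_lt_one (mul_nonneg h0 h0)
    (by nlinarith : B * B < 1)).mul_const B).const_mul ‖tr‖
  have := ge_of_tendsto' t k
  rw [zero_mul, mul_zero, norm_le_zero_iff, map_sub, sub_eq_zero] at this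
  exact this

end Vale.Agent.P184
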