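import Mathlib

/-!
Definitions used in the statement.
-/

namespace Vale.Agent.P184

/-- A length function on a group: subadditive and symmetric. -/
def IsLength {G : Type*} [Group G] (l : G → ℝ) : Prop :=
  (∀ x y, l (x * y) ≤ l x + l y) ∧ ∀ x, l x⁻¹ = l x

/-- The bounded real functions on `G`. -/
def Linf (G : Type*) : Submodule ℝ (G → ℝ) where
  carrier := {φ | ∃ C, ∀ g, |φ g| ≤ C}
  add_mem' := fun ⟨C, h⟩ ⟨D, k⟩ => ⟨C + D, fun g => (abs_add_le _ _).trans (add_le_add (h g) (k g))⟩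
  zero_mem' := ⟨0, fun _ => abs_zero.le⟩
  smul_mem' := fun c _ ⟨C, h⟩ => ⟨|c| * C, fun g =>
    (abs_mul _ _).le.trans (mul_le_mul_of_nonneg_left (h g) (abs_nonneg c))⟩

/-- A discrete group is amenable if bounded real functions on it carry a left-invariant mean. -/
def Amenable (G : Type*) [Group G] : Prop :=
  ∃ M : Linf G →ₗ[ℝ] ℝ, (∀ φ : Linf G, (∀ g, φ.1 g = 1) → M φ = 1) ∧
    (∀ φ : Linf G, (∀ g, 0 ≤ φ.1 g) → 0 ≤ M φ) ∧
    ∀ (h : G) (φ ψ : Linf G), (∀ g, ψ.1 g = φ.1 (h * g)) → M ψ = M φ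

/-- `e` is an idempotent matrix over the convolution algebra of summable functions. -/
def IsIdem {G : Type*} [Group G] {q : ℕ} (e : Fin q → Fin q → G → ℂ) : Prop :=
  (∀ i j, Summable fun h => ‖e i j h‖) ∧
    ∀ i j h, ∑ k, ∑' x, e i k x * e k j (x⁻¹ * h) = e i j h

/-- The coefficient of the Hattori-Stallings trace at the conjugacy class of `g`. -/
noncomputable def tauC {G : Type*} [Group G] {q : ℕ} (e : Fin q → Fin q → G → ℂ) (g : G) : ℂ :=
  ∑' γ : {γ : G // IsConj g γ}, ∑ i, e i i γ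

end Vale.Agent.P184
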