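import Vale.Agent.P184.Main
import Vale.Agent.P184.Defs

/-!
Matrices, and amenable centralizers.
-/

open Filter Topology
open scoped Classical Matrix.Norms.Operator

namespace Vale.Agent.P184

variable {G : Type*} [Group G]

theorem char_case {q : ℕ} {e : Fin q → Fin q → G → ℂ} (he : IsIdem e) {g : G}
    (φ : Subgroup.centralizer ({g} : Set G) → ℝ) (h1 : ∀ z w, φ (z * w) = φ z + φ w)
    (h2 : φ ⟨g, Subgroup.mem_centralizer_singleton_iff.2 rfl⟩ ≠ 0) {l : G → ℝ} (hl : IsLength l)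
    (h3 : ∀ z, φ z ≤ l z) : tauC e g = 0 := by
  obtain ⟨c, l', c1, c2, c3⟩ := exists_c φ h1 h2 hl.1 hl.2 h3
  let E : G → Matrix (Fin q) (Fin q) ℂ := fun h => Matrix.of fun i j => e i j h
  have nb : ∀ A : Matrix (Fin q) (Fin q) ℂ, ‖A‖ ≤ ∑ i, ∑ j, ‖A i j‖ := fun A => by
    rw [Matrix.linfty_opNorm_def]
    have : (Finset.univ.sup fun i => ∑ j, ‖A i j‖₊) ≤ ∑ i, ∑ j, ‖A i j‖₊ :=
      Finset.sup_le fun i _ => Finset.single_le_sum (f := fun i => ∑ j, ‖A i j‖₊)
        (fun _ _ => zero_le) (Finset.mem_univ i)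
    exact (NNReal.coe_le_coe.2 this).trans (le_of_eq (by simp))
  have hs : Summable fun h => ‖E h‖ := .of_nonneg_of_le (fun _ => norm_nonneg _) (fun h => nb _)
    (summable_sum fun i _ => summable_sum fun j _ => he.1 i j)
  let tr : Matrix (Fin q) (Fin q) ℂ →L[ℂ] ℂ := LinearMap.toContinuousLinearMap (Matrix.traceLinearMap _ ℂ ℂ)
  have sm : ∀ i k j h, Summable fun x => e i k x * e k j (x⁻¹ * h) := fun i k j h =>
    .of_norm_bounded ((he.1 i k).mul_right (∑' y, ‖e k j y‖)) fun x => (norm_mul_le _ _).trans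
      (mul_le_mul_of_nonneg_left ((he.1 k j).le_tsum _ fun _ _ => norm_nonneg _) (norm_nonneg _))
  have k := vanish (C := {γ | IsConj g γ}) (tr := tr) (e := E)
    (fun γ k => ⟨fun h => h.trans (isConj_iff.2 ⟨k, by group⟩), fun h => h.trans (isConj_iff.2 ⟨k⁻¹, by group⟩)⟩)
    (fun x y => Matrix.trace_mul_comm x y) hs (fun h => HasSum.tsum_eq (Pi.hasSum.2 fun i => Pi.hasSum.2 fun j => by
      have := hasSum_sum (s := Finset.univ) fun k _ => (sm i k j h).hasSum
      rw [he.2] at this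
      exact this)) c1 c2 c3
  rw [← k]
  exact (tsum_subtype {γ | IsConj g γ} fun γ => ∑ i, e i i γ).trans (tsum_congr fun γ => by
    rw [Set.indicator_apply]
    rfl)

theorem exists_th {g : G} {l : G → ℝ} (hl : IsLength l) (h : ∀ n : ℕ, (n : ℝ) ≤ l (g ^ n)) :
    ∃ Θ : G → ℝ, (∀ x, Θ (g * x) = 1 + Θ x) ∧ ∀ x h, |Θ (x * h) - Θ x| ≤ l h := by
  have h3 : ∀ n : ℤ, -(n : ℝ) ≤ l (g ^ n) := fun n => by
    obtain ⟨m, rfl | rfl⟩ := n.eq_nat_or_neg
    · have := h m
      have := Nat.cast_nonneg (α := ℝ) m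
      rw [zpow_natCast, Int.cast_natCast]
      linarith
    · rw [zpow_neg, hl.2, zpow_natCast]
      simpa using h m
  let Θ : G → ℝ := fun x => ⨅ n : ℤ, ((n : ℝ) + l ((g ^ n)⁻¹ * x))
  have bd : ∀ x, BddBelow (Set.range fun n : ℤ => (n : ℝ) + l ((g ^ n)⁻¹ * x)) := fun x => ⟨-l x, by
    rintro _ ⟨n, rfl⟩
    have a1 := h3 n
    have a2 := hl.1 ((g ^ n)⁻¹ * x) x⁻¹
    rw [mul_inv_cancel_right, hl.2 x, hl.2] at a2
    linarith⟩
  have q1 : ∀ (w : ℤ) x, Θ (g ^ w * x) ≤ w + Θ x := fun w x => by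
    rw [← sub_le_iff_le_add']
    refine le_ciInf fun z => ?_
    have := ciInf_le (bd (g ^ w * x)) (w + z)
    rw [Int.cast_add, zpow_add, mul_inv_rev, mul_assoc, inv_mul_cancel_left] at this
    linarith
  have q3 : ∀ x h, Θ (x * h) ≤ Θ x + l h := fun x h => by
    rw [← sub_le_iff_le_add]
    refine le_ciInf fun z => ?_
    have := ciInf_le (bd (x * h)) z
    have a2 := hl.1 ((g ^ z)⁻¹ * x) h
    rw [mul_assoc] at a2
    linarith
  refine ⟨Θ, fun x => ?_, fun x h => ?_⟩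
  · have a1 := q1 1 x
    have a2 := q1 (-1) (g * x)
    rw [zpow_neg, zpow_one, inv_mul_cancel_left] at a2
    rw [zpow_one] at a1
    push_cast at a1 a2
    linarith
  · have := q3 (x * h) h⁻¹
    rw [mul_inv_cancel_right, hl.2] at this
    exact abs_le.2 ⟨by linarith, by linarith [q3 x h]⟩

theorem amen_case {q : ℕ} {e : Fin q → Fin q → G → ℂ} (he : IsIdem e) {g : G}
    (ha : Amenable (Subgroup.centralizer ({g} : Set G))) {l : G → ℝ} (hl : IsLength l)
    (h : ∀ n : ℕ, (n : ℝ) ≤ l (g ^ n)) : tauC e g = 0 := by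
  obtain ⟨Θ, t1, t2⟩ := exists_th hl h
  obtain ⟨M, m1, m2, m3⟩ := ha
  let F : Subgroup.centralizer ({g} : Set G) → Linf (Subgroup.centralizer ({g} : Set G)) := fun w =>
    ⟨fun z => Θ ((z : G)⁻¹ * w) - Θ (z : G)⁻¹, l w, fun z => t2 _ _⟩
  refine char_case he (fun w => M (F w)) (fun z w => ?_) ?_ hl fun w => ?_
  · have := m3 z⁻¹ (F w) (F (z * w) - F z) fun u => by
      simp [F, mul_assoc]
    rw [map_sub] at this
    linarith
  · rw [m1 _ fun z => ?_]
    · exact one_ne_zero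
    · have c := Subgroup.mem_centralizer_singleton_iff.1 (inv_mem z.2)
      simp only [F, c, t1]
      ring
  · let o : Linf (Subgroup.centralizer ({g} : Set G)) := ⟨fun _ => 1, 1, fun _ => abs_one.le⟩
    have := m2 (l w • o - F w) fun z => by
      have := (abs_le.1 (t2 (z : G)⁻¹ w)).2
      simpa [o, F] using this
    rw [map_sub, map_smul, m1 o fun _ => rfl, smul_eq_mul, mul_one] at this
    linarith

end Vale.Agent.P184
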