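import Vale.Agent.P184.Alg

/-!
Twisting an idempotent by a bounded cocycle of the conjugation groupoid.
-/

open Filter Topology
open scoped Classical

namespace Vale.Agent.P184

variable {G : Type*} [Group G] {R : Type*} [NormedRing R] [CompleteSpace R] [NormedAlgebra ℂ R]
  {C : Set G} {tr : R →L[ℂ] ℂ}

theorem vanish (hC : ∀ γ k, k⁻¹ * γ * k ∈ C ↔ γ ∈ C) (ht : ∀ x y, tr (x * y) = tr (y * x))
    {e : G → R} (hs : Summable fun h => ‖e h‖) (he : ∀ h, ∑' k, e k * e (k⁻¹ * h) = e h)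
    {c : G → G → ℝ} {l : G → ℝ} (c1 : ∀ γ h, |c γ h| ≤ l h)
    (c2 : ∀ γ k h, c γ k + c (k⁻¹ * γ * k) (k⁻¹ * h) = c γ h) (c3 : ∀ γ ∈ C, c γ γ = 1) :
    Tr C tr (fun _ h => e h) = 0 := by
  let E : ℝ → Al G R := fun t => ⟨fun γ h => Complex.exp (Complex.I * (t * c γ h : ℝ)) • e h, _,
    fun h => ‖e h‖, hs, fun γ h => by rw [norm_smul, Complex.norm_exp_I_mul_ofReal, one_mul], le_rfl⟩
  have id : ∀ t, E t * E t = E t := fun t => Subtype.ext (by
    funext γ h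
    change ∑' k, (Complex.exp (Complex.I * (t * c γ k : ℝ)) • e k) *
      (Complex.exp (Complex.I * (t * c (k⁻¹ * γ * k) (k⁻¹ * h) : ℝ)) • e (k⁻¹ * h)) =
        Complex.exp (Complex.I * (t * c γ h : ℝ)) • e h
    rw [← he h, ← tsum_const_smul'']
    refine tsum_congr fun k => ?_
    rw [smul_mul_smul_comm, ← Complex.exp_add, ← mul_add, ← Complex.ofReal_add, ← mul_add, c2])
  have tE : ∀ t : ℝ, Tr C tr (E t).1 = Complex.exp (Complex.I * t) * Tr C tr (fun _ h => e h) := fun t => by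
    unfold Tr
    rw [← tsum_mul_left]
    refine tsum_congr fun γ => ?_
    split_ifs with h
    · change tr (Complex.exp (Complex.I * (t * c γ γ : ℝ)) • e γ) = _
      rw [c3 γ h, mul_one, map_smul, smul_eq_mul]
    · simp
  have lim : Tendsto (fun n : ℕ => ∑' h, min 2 (1 / ((n : ℝ) + 1) * l h) * ‖e h‖) atTop
      (𝓝 (∑' _h : G, (0 : ℝ))) := by
    refine tendsto_tsum_of_dominated_convergence (hs.mul_left 2) (fun h => ?_) (.of_forall fun n h => ?_)
    · have := ((tendsto_const_nhds (x := (2 : ℝ))).min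
        ((tendsto_one_div_add_atTop_nhds_zero_nat (𝕜 := ℝ)).mul_const (l h))).mul_const ‖e h‖
      simpa using this
    · have l0 : 0 ≤ l h := (abs_nonneg _).trans (c1 1 h)
      rw [Real.norm_eq_abs, abs_of_nonneg (by positivity)]
      exact mul_le_mul_of_nonneg_right (min_le_left _ _) (norm_nonneg _)
  rw [tsum_zero] at lim
  obtain ⟨n, hn⟩ := (lim.eventually (gt_mem_nhds one_pos)).exists
  obtain ⟨t, htn⟩ : ∃ t : ℝ, t = 1 / ((n : ℝ) + 1) := ⟨_, rfl⟩
  rw [← htn] at hn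
  have t0 : 0 < t := by rw [htn]; positivity
  have t1 : t ≤ 1 := by rw [htn, div_le_one (by positivity)]; linarith [Nat.cast_nonneg (α := ℝ) n]
  have p0 : ∀ h, 0 ≤ min 2 (t * l h) * ‖e h‖ := fun h => by
    have l0 : 0 ≤ l h := (abs_nonneg _).trans (c1 1 h)
    positivity
  have d : Dom (E t - E 0).1 (∑' h, min 2 (t * l h) * ‖e h‖) := by
    refine ⟨_, .of_nonneg_of_le p0 (fun h => mul_le_mul_of_nonneg_right (min_le_left _ _) (norm_nonneg _))
      (hs.mul_left 2), fun γ h => ?_, le_rfl⟩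
    rw [sub_eq_add_neg]
    change ‖Complex.exp (Complex.I * (t * c γ h : ℝ)) • e h +
      -(Complex.exp (Complex.I * (0 * c γ h : ℝ)) • e h)‖ ≤ _
    rw [← sub_eq_add_neg, ← sub_smul, norm_smul, zero_mul, Complex.ofReal_zero, mul_zero, Complex.exp_zero]
    refine mul_le_mul_of_nonneg_right (le_min ?_ ?_) (norm_nonneg _)
    · refine (norm_sub_le _ _).trans ?_
      rw [Complex.norm_exp_I_mul_ofReal, norm_one]
      norm_num
    · refine Real.norm_exp_I_mul_ofReal_sub_one_le.trans ?_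
      rw [Real.norm_eq_abs, abs_mul, abs_of_pos t0]
      exact mul_le_mul_of_nonneg_left (c1 γ h) t0.le
  have k := Tr_close hC ht (id t) (id 0) d (tsum_nonneg p0) hn
  rw [tE, tE, Complex.ofReal_zero, mul_zero, Complex.exp_zero] at k
  by_contra h0
  have k2 := congrArg Complex.im (mul_right_cancel₀ h0 k)
  rw [mul_comm, Complex.exp_ofReal_mul_I_im, Complex.one_im] at k2
  exact (Real.sin_pos_of_pos_of_le_one t0 t1).ne' k2

theorem exists_c {g : G} (φ : Subgroup.centralizer ({g} : Set G) → ℝ) (h1 : ∀ z w, φ (z * w) = φ z + φ w)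
    (h2 : φ ⟨g, Subgroup.mem_centralizer_singleton_iff.2 rfl⟩ ≠ 0) {l : G → ℝ}
    (l1 : ∀ x y, l (x * y) ≤ l x + l y) (l2 : ∀ x, l x⁻¹ = l x) (h3 : ∀ z, φ z ≤ l z) :
    ∃ (c : G → G → ℝ) (l' : G → ℝ), (∀ γ h, |c γ h| ≤ l' h) ∧
      (∀ γ k h, c γ k + c (k⁻¹ * γ * k) (k⁻¹ * h) = c γ h) ∧ ∀ γ, IsConj g γ → c γ γ = 1 := by
  have p1 : φ 1 = 0 := by have := h1 1 1; rw [mul_one] at this; linarith
  have p2 : ∀ z, φ z⁻¹ = -φ z := fun z => by have := h1 z z⁻¹; rw [mul_inv_cancel] at this; linarith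
  let Θ : G → ℝ := fun x => ⨅ z : Subgroup.centralizer ({g} : Set G), (φ z + l ((z : G)⁻¹ * x))
  have bd : ∀ x, BddBelow (Set.range fun z : Subgroup.centralizer ({g} : Set G) =>
      φ z + l ((z : G)⁻¹ * x)) := fun x => ⟨-l x, by
    rintro _ ⟨z, rfl⟩
    have a1 := h3 z⁻¹
    have a2 := l1 ((z : G)⁻¹ * x) x⁻¹
    rw [mul_inv_cancel_right, l2 x] at a2
    rw [p2, Subgroup.coe_inv] at a1
    linarith⟩
  have q1 : ∀ (w : Subgroup.centralizer ({g} : Set G)) x, Θ (w * x) ≤ φ w + Θ x := fun w x => by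
    rw [← sub_le_iff_le_add']
    refine le_ciInf fun z => ?_
    have := ciInf_le (bd (w * x)) (w * z)
    rw [h1, Subgroup.coe_mul, mul_inv_rev, mul_assoc, inv_mul_cancel_left] at this
    linarith
  have q2 : ∀ (w : Subgroup.centralizer ({g} : Set G)) x, Θ (w * x) = φ w + Θ x := fun w x => by
    have := q1 w⁻¹ (w * x)
    rw [p2, Subgroup.coe_inv, inv_mul_cancel_left] at this
    linarith [q1 w x]
  have q3 : ∀ x h, Θ (x * h) ≤ Θ x + l h := fun x h => by
    rw [← sub_le_iff_le_add]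
    refine le_ciInf fun z => ?_
    have := ciInf_le (bd (x * h)) z
    have a2 := l1 ((z : G)⁻¹ * x) h
    rw [mul_assoc] at a2
    linarith
  have q4 : ∀ x h, |Θ (x * h) - Θ x| ≤ l h := fun x h => by
    have := q3 (x * h) h⁻¹
    rw [mul_inv_cancel_right, l2] at this
    exact abs_le.2 ⟨by linarith, by linarith [q3 x h]⟩
  obtain ⟨s, hs⟩ : ∃ s, s = φ ⟨g, Subgroup.mem_centralizer_singleton_iff.2 rfl⟩ := ⟨_, rfl⟩
  rw [← hs] at h2
  let c : G → G → ℝ := fun γ h =>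
    if H : ∃ x, x⁻¹ * g * x = γ then (Θ (H.choose * h) - Θ H.choose) / s else 0
  have key : ∀ x h, c (x⁻¹ * g * x) h = (Θ (x * h) - Θ x) / s := fun x h => by
    have H : ∃ y, y⁻¹ * g * y = x⁻¹ * g * x := ⟨x, rfl⟩
    have m : H.choose * x⁻¹ ∈ Subgroup.centralizer ({g} : Set G) :=
      Subgroup.mem_centralizer_singleton_iff.2 (by
        have := H.choose_spec
        calc H.choose * x⁻¹ * g = H.choose * (x⁻¹ * g * x) * x⁻¹ := by group
          _ = H.choose * (H.choose⁻¹ * g * H.choose) * x⁻¹ := by rw [this]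
          _ = g * (H.choose * x⁻¹) := by group)
    have a1 := q2 ⟨_, m⟩ x
    have a2 := q2 ⟨_, m⟩ (x * h)
    simp only [inv_mul_cancel_right, ← mul_assoc] at a1 a2
    simp only [c, dif_pos H, a1, a2]
    ring
  refine ⟨c, fun h => l h / |s|, fun γ h => ?_, fun γ k h => ?_, fun γ hγ => ?_⟩
  · by_cases H : ∃ x, x⁻¹ * g * x = γ
    · obtain ⟨x, rfl⟩ := H
      rw [key, abs_div]
      exact div_le_div_of_nonneg_right (q4 x h) (abs_nonneg s)
    · simp only [c, dif_neg H, abs_zero]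
      exact div_nonneg ((abs_nonneg _).trans (q4 1 h)) (abs_nonneg s)
  · by_cases H : ∃ x, x⁻¹ * g * x = γ
    · obtain ⟨x, rfl⟩ := H
      rw [show k⁻¹ * (x⁻¹ * g * x) * k = (x * k)⁻¹ * g * (x * k) by group, key, key, key, mul_assoc,
        mul_inv_cancel_left]
      ring
    · have H' : ¬∃ x, x⁻¹ * g * x = k⁻¹ * γ * k := fun ⟨x, hx⟩ => H ⟨x * k⁻¹, by
        calc (x * k⁻¹)⁻¹ * g * (x * k⁻¹) = k * (x⁻¹ * g * x) * k⁻¹ := by group
          _ = γ := by rw [hx]; group⟩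
      simp only [c, dif_neg H, dif_neg H', add_zero]
  · obtain ⟨x, rfl⟩ := isConj_iff.1 hγ
    have e : x * g * x⁻¹ = x⁻¹⁻¹ * g * x⁻¹ := by rw [inv_inv]
    have a1 := q2 ⟨g, Subgroup.mem_centralizer_singleton_iff.2 rfl⟩ x⁻¹
    rw [e, key, show x⁻¹ * (x⁻¹⁻¹ * g * x⁻¹) = g * x⁻¹ by group, a1, ← hs]
    field_simp
    ring

end Vale.Agent.P184
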